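import Vale.Agent.Lib.P038.Sat.Shapes.S2_0f
noncomputable section
namespace Vale.Agent.Lib.P038.Sat.I.L1_2
open Vale.Agent.Lib.P038.Sat
def W : Nat := 18
def M : Nat := 262143
def GT : Nat := 179558016103118547405862805890153596765046001621833495325642864382056558117769096021503691671514942904273085582119578620146221826
def h0 : T := (T.l (nat_lit 0))
def H : T := h0
theorem hlast : getB H 0 = 0 := by decide +kernel
end Vale.Agent.Lib.P038.Sat.I.L1_2
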