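import Vale.Agent.Lib.P038.Sat.I.L1_2.H
noncomputable section
namespace Vale.Agent.Lib.P038.Sat.I.L1_2.S0
open Vale.Agent.Lib.P038.Sat Vale.Agent.Lib.P038.Sat.I.L1_2
def b0 : List Nat := [nat_lit 985162418487351,nat_lit 6343320083808928273,nat_lit 6919569738502914097,nat_lit 578571840398835760,nat_lit 1055565522403399,nat_lit 2308165220788879905,nat_lit 1125951446450263,nat_lit 4614078615926620721,nat_lit 1196337370497127,nat_lit 5190609754154091073,nat_lit 1266723294543991,nat_lit 1731915626257597009,nat_lit 1154258613892563840,nat_lit 3460172000440370064,nat_lit 61405753805098076226464,nat_lit 47235772404579934290864,nat_lit 33072708462720857686976,nat_lit 23626245622152372175824,nat_lit 1618635734908936]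
def p0 : List Nat := [nat_lit 4503599627460609,nat_lit 9007749010653186,nat_lit 13511898393747459,nat_lit 22520197160140805,nat_lit 31528495926542343,nat_lit 40536794692919304,nat_lit 49545093459238922,nat_lit 54044844795904012,nat_lit 58553392225632268,nat_lit 516540362010038214670,nat_lit 553447362605606846472,nat_lit 590331846852306067464,nat_lit 627225333900213526545,nat_lit 9896745500690]
def o0 : List Nat := [nat_lit 18]
theorem ok : segCheck (Gen.gen sh_2_0_f (flL1 2)) W M GT 5 0 1 H [b0] [] [p0] [o0] = true := by decide +kernel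
theorem seg {τ : Nat → Bool} (hgen : ∀ t c, Gen.gen sh_2_0_f (flL1 2) t = some c → holdsG τ c)
  (hin : ∀ g, g < 0 → HL W (loc GT τ) (getB H g)) :
  ∀ g, 0 ≤ g → g < 1 → HL W (loc GT τ) (getB H g) :=
  segCheck_sound ok hgen hin
end Vale.Agent.Lib.P038.Sat.I.L1_2.S0
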